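import Vale.Agent.H38.P140Lemmas

open MeasureTheory Real

namespace Vale.Agent.Results.P140.A_ColdMaxwellian

open Vale.Agent.H38.P140

/-- Uniqueness for cold global Maxwellian data. Let `G` be the global Maxwellian on
`T^3 × R^3` with density `ρ > 0`, bulk velocity `u` and temperature `0 < θ ≤ 1`. Then the constant
family `F t = G` obeys the global laws (so the hypotheses below are not vacuous), and every
time-dependent density `F` with `F 0 = G` obeying the global laws (nonnegativity, finite mass,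
energy and entropy, conservation of total mass and momentum, the energy inequality and the
`H_M` entropy inequality) satisfies `F t = G` almost everywhere for every `t ≥ 0`. -/
theorem result (ρ θ : ℝ) (u : EuclideanSpace ℝ (Fin 3)) (hρ : 0 < ρ) (hθ : 0 < θ) (hθ1 : θ ≤ 1) :
    ObeysGlobalLaws (fun _ => maxwellian ρ θ u) (maxwellian ρ θ u) ∧
    ∀ F : ℝ → Phase → ℝ, ObeysGlobalLaws F (maxwellian ρ θ u) →
      ∀ t : ℝ, 0 ≤ t → F t =ᵐ[volume] maxwellian ρ θ u := by
  obtain ⟨hG, hG2, hGlog⟩ := integrable_maxwellian_family ρ θ u hρ hθ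
  refine ⟨⟨rfl, fun t _ => ⟨fun z => (maxwellian_pos u hρ hθ z).le, hG, hG2, hGlog, rfl, rfl,
    le_refl _, le_refl _⟩⟩, ?_⟩
  rintro F ⟨_, hF⟩ t ht
  obtain ⟨hnn, hf, hf2, hflog, hmass, hmom, hen, hent⟩ := hF t ht
  exact static_unique ρ θ u hρ hθ hθ1 (F t) (maxwellian ρ θ u) rfl hnn hf hf2 hflog hG hG2 hGlog
    hmass hmom hen hent

end Vale.Agent.Results.P140.A_ColdMaxwellian
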